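import Vale.Agent.H2.P064.Boot

/-! # P064: the tree inequality `keyR` -/

namespace Vale.Agent.H14.P064

open Finset Classical Vale.Agent.H2.P064

set_option linter.unusedSectionVars false

variable {X G : Type} [Fintype X] [Group G] [Fintype G] (a : G →* Equiv.Perm X)

theorem im_sdiff (g : G) (F F' : Finset X) : im a g (F \ F') = im a g F \ im a g F' := by
  ext x
  rw [mem_im, mem_sdiff, mem_sdiff, mem_im, mem_im]

theorem P_mono_left {A B : Finset X} (h : A ⊆ B) (F : Finset X) : P a A F ≤ P a B F := by
  rw [P_eq, P_eq]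
  apply div_le_div_of_nonneg_right _ cardG_pos.le
  apply Finset.sum_le_sum
  intro g _
  by_cases h1 : im a g F ⊆ A
  · rw [if_pos h1, if_pos (h1.trans h)]
  · rw [if_neg h1]; split_ifs <;> norm_num

theorem P_anti_right (A : Finset X) {F F' : Finset X} (h : F ⊆ F') : P a A F' ≤ P a A F := by
  rw [P_eq, P_eq]
  apply div_le_div_of_nonneg_right _ cardG_pos.le
  apply Finset.sum_le_sum
  intro g _
  by_cases h1 : im a g F' ⊆ A
  · rw [if_pos h1, if_pos (((im_subset_im a g).2 h).trans h1)]
  · rw [if_neg h1]; split_ifs <;> norm_num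

/-- weighted leaf sums of the tree of unions -/
noncomputable def Q (W F : Finset X) (th : ℕ → ℝ) : ℕ → Finset X → ℝ
  | 0, Z => if W.card ≤ 2 * Z.card then P a W Z else 0
  | k + 1, Z => if W.card ≤ 2 * Z.card then 0 else
      (∑ g : G, th (im a g F \ Z).card * Q W F th k (Z ∪ im a g F)) / Fintype.card G

theorem Q_nonneg (W F : Finset X) (th : ℕ → ℝ) (hth : ∀ j, 0 ≤ th j) :
    ∀ k Z, 0 ≤ Q a W F th k Z := by
  intro k
  induction k with
  | zero => intro Z; unfold Q; split_ifs; exacts [P_nonneg a W Z, le_rfl]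
  | succ k ih =>
    intro Z; unfold Q; split_ifs
    · exact le_rfl
    · exact div_nonneg (Finset.sum_nonneg fun g _ => mul_nonneg (hth _) (ih _)) cardG_pos.le

theorem Q_zero_of (W F : Finset X) (th : ℕ → ℝ) : ∀ k Z, P a W Z = 0 → Q a W F th k Z = 0 := by
  intro k
  induction k with
  | zero => intro Z hZ; unfold Q; split_ifs; exacts [hZ, rfl]
  | succ k ih =>
    intro Z hZ; unfold Q; split_ifs
    · rfl
    · rw [Finset.sum_eq_zero, zero_div]
      intro g _
      rw [ih _ (le_antisymm ((P_anti_right a W subset_union_left).trans hZ.le)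
        (P_nonneg a W _)), mul_zero]

theorem sym_lower (W F : Finset X) (th : ℕ → ℝ) (PF : ℝ)
    (hrob : ∀ Z, Z ⊆ W → 2 * Z.card < W.card →
      PF ≤ (∑ g : G, if im a g F ⊆ W then th (im a g F \ Z).card else 0) / Fintype.card G)
    (Z : Finset X) (hZ : 2 * Z.card < W.card) :
    PF * P a W Z ≤ (∑ g : G, th (im a g F \ Z).card * P a W (Z ∪ im a g F)) /
      Fintype.card G := by
  have hG : (0:ℝ) < Fintype.card G := cardG_pos
  have h1 : ∀ h : G, (if im a h Z ⊆ W then (1:ℝ) else 0) * (PF * Fintype.card G) ≤
      ∑ g : G, th (im a g F \ Z).card * (if im a h (Z ∪ im a g F) ⊆ W then (1:ℝ) else 0) := by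
    intro h
    by_cases hh : im a h Z ⊆ W
    · rw [if_pos hh, one_mul]
      have h2 := hrob (im a h Z) hh (by rwa [card_im])
      rw [le_div_iff₀ hG] at h2
      refine h2.trans (le_of_eq ?_)
      symm
      apply Fintype.sum_equiv (Equiv.mulLeft h)
      intro g
      simp only [Equiv.coe_mulLeft]
      have h3 : im a (h * g) F \ im a h Z = im a h (im a g F \ Z) := by
        rw [im_sdiff, im_mul]
      rw [h3, card_im]
      have h4 : im a h (Z ∪ im a g F) ⊆ W ↔ im a (h * g) F ⊆ W := by
        rw [im_union, im_mul, union_subset_iff]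
        exact ⟨fun h => h.2, fun h' => ⟨hh, h'⟩⟩
      by_cases h5 : im a (h * g) F ⊆ W
      · have h6 := h4.2 h5
        simp [h5, h6]
      · have h6 : ¬ im a h (Z ∪ im a g F) ⊆ W := fun h' => h5 (h4.1 h')
        simp [h5, h6]
    · rw [if_neg hh, zero_mul]
      apply le_of_eq
      symm
      apply Finset.sum_eq_zero
      intro g _
      rw [if_neg, mul_zero]
      intro h'
      rw [im_union, union_subset_iff] at h'
      exact hh h'.1
  have h2 : (∑ h : G, (if im a h Z ⊆ W then (1:ℝ) else 0)) * (PF * Fintype.card G) ≤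
      ∑ g : G, th (im a g F \ Z).card *
        ∑ h : G, (if im a h (Z ∪ im a g F) ⊆ W then (1:ℝ) else 0) := by
    rw [Finset.sum_mul]
    refine (Finset.sum_le_sum fun h _ => h1 h).trans (le_of_eq ?_)
    rw [Finset.sum_comm]
    apply Finset.sum_congr rfl
    intro g _
    rw [Finset.mul_sum]
  rw [le_div_iff₀ hG]
  have h3 : ∀ Y : Finset X, (∑ h : G, (if im a h Y ⊆ W then (1:ℝ) else 0)) =
      P a W Y * Fintype.card G := by
    intro Y
    rw [P_eq]; field_simp
  simp_rw [h3] at h2
  have h4 : ∑ g : G, th (im a g F \ Z).card * (P a W (Z ∪ im a g F) * (Fintype.card G : ℝ)) =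
      (∑ g : G, th (im a g F \ Z).card * P a W (Z ∪ im a g F)) * Fintype.card G := by
    rw [Finset.sum_mul]
    apply Finset.sum_congr rfl
    intro g _; ring
  rw [h4] at h2
  have h5 : P a W Z * (Fintype.card G : ℝ) * (PF * Fintype.card G) =
      (PF * P a W Z * Fintype.card G) * Fintype.card G := by ring
  rw [h5] at h2
  exact le_of_mul_le_mul_right h2 hG

theorem lower (W F : Finset X) (th : ℕ → ℝ) (hth : ∀ j, 0 ≤ th j) (hth0 : th 0 = 0)
    (PF : ℝ) (hPF : 0 < PF)
    (hrob : ∀ Z, Z ⊆ W → 2 * Z.card < W.card →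
      PF ≤ (∑ g : G, if im a g F ⊆ W then th (im a g F \ Z).card else 0) / Fintype.card G) :
    ∀ (n : ℕ) (Z : Finset X), W.card ≤ 2 * (Z.card + n) →
      P a W Z ≤ ∑ k ∈ range (n + 1), Q a W F th k Z / PF ^ k := by
  intro n
  induction n with
  | zero =>
    intro Z hZ
    rw [zero_add, Finset.sum_range_one, pow_zero, div_one]
    unfold Q
    rw [if_pos (by omega)]
  | succ n ih =>
    intro Z hZ
    rw [Finset.sum_range_succ']
    by_cases h0 : W.card ≤ 2 * Z.card
    · have h1 : Q a W F th 0 Z / PF ^ 0 = P a W Z := by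
        rw [pow_zero, div_one]; unfold Q; rw [if_pos h0]
      rw [h1]
      have : 0 ≤ ∑ k ∈ range (n + 1), Q a W F th (k + 1) Z / PF ^ (k + 1) :=
        Finset.sum_nonneg fun k _ => div_nonneg (Q_nonneg a W F th hth _ _) (by positivity)
      linarith
    · have h1 : Q a W F th 0 Z / PF ^ 0 = 0 := by
        rw [pow_zero, div_one]; unfold Q; rw [if_neg h0]
      rw [h1, add_zero]
      have h2 : ∀ k, Q a W F th (k + 1) Z =
          (∑ g : G, th (im a g F \ Z).card * Q a W F th k (Z ∪ im a g F)) /
            Fintype.card G := by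
        intro k
        conv_lhs => unfold Q
        rw [if_neg h0]
      have hG : (0:ℝ) < Fintype.card G := cardG_pos
      have h3 : ∑ k ∈ range (n + 1), Q a W F th (k + 1) Z / PF ^ (k + 1) =
          ((∑ g : G, th (im a g F \ Z).card *
            ∑ k ∈ range (n + 1), Q a W F th k (Z ∪ im a g F) / PF ^ k) /
              Fintype.card G) / PF := by
        have h4 : ∀ k ∈ range (n + 1), Q a W F th (k + 1) Z / PF ^ (k + 1) =
            (∑ g : G, th (im a g F \ Z).card * (Q a W F th k (Z ∪ im a g F) / PF ^ k)) /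
              Fintype.card G / PF := by
          intro k _
          rw [h2 k, pow_succ]
          have : ∑ g : G, th (im a g F \ Z).card * (Q a W F th k (Z ∪ im a g F) / PF ^ k) =
              (∑ g : G, th (im a g F \ Z).card * Q a W F th k (Z ∪ im a g F)) / PF ^ k := by
            rw [Finset.sum_div]
            apply Finset.sum_congr rfl
            intro g _; ring
          rw [this]
          field_simp
        rw [Finset.sum_congr rfl h4, ← Finset.sum_div, ← Finset.sum_div, Finset.sum_comm]
        congr 3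
        funext g
        rw [Finset.mul_sum]
      rw [h3, le_div_iff₀ hPF]
      have h5 := sym_lower a W F th PF hrob Z (by omega)
      rw [mul_comm]
      refine h5.trans ?_
      apply div_le_div_of_nonneg_right _ hG.le
      apply Finset.sum_le_sum
      intro g _
      by_cases h6 : (im a g F \ Z).card = 0
      · rw [h6, hth0, zero_mul, zero_mul]
      · apply mul_le_mul_of_nonneg_left _ (hth _)
        apply ih
        have h7 : (Z ∪ im a g F).card = Z.card + (im a g F \ Z).card := by
          rw [← Finset.card_union_of_disjoint disjoint_sdiff, Finset.union_sdiff_self_eq_union]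
        omega

theorem step_upper (W F : Finset X) (th : ℕ → ℝ) (hth : ∀ j, 0 ≤ th j) (y : ℝ) (hy : 0 ≤ y)
    (Z : Finset X) (hZ : ∃ h : G, im a h Z ⊆ W) :
    (∑ g : G, th (im a g F \ Z).card * y ^ (im a g F \ Z).card) / Fintype.card G ≤
      ∑ A ∈ F.powerset, th (F.card - A.card) * P a W A * y ^ (F.card - A.card) := by
  have hG : (0:ℝ) < Fintype.card G := cardG_pos
  obtain ⟨h, hh⟩ := hZ
  have h1 : ∀ g : G, th (im a g F \ Z).card * y ^ (im a g F \ Z).card ≤
      ∑ A ∈ F.powerset, (if im a g A ⊆ Z then (1:ℝ) else 0) *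
        (th (F.card - A.card) * y ^ (F.card - A.card)) := by
    intro g
    have hmem : F ∩ im a g⁻¹ Z ∈ F.powerset := by
      rw [mem_powerset]; exact inter_subset_left
    have h2 : im a g (F ∩ im a g⁻¹ Z) ⊆ Z := by
      rw [im_inter, im_im_inv]; exact inter_subset_right
    have h3 : (im a g F \ Z).card = F.card - (F ∩ im a g⁻¹ Z).card := by
      have h4 : im a g F \ Z = im a g (F \ im a g⁻¹ Z) := by
        rw [im_sdiff, im_im_inv]
      rw [h4, card_im]
      have := Finset.card_sdiff_add_card_inter F (im a g⁻¹ Z)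
      omega
    have h5 := Finset.single_le_sum (f := fun A => (if im a g A ⊆ Z then (1:ℝ) else 0) *
        (th (F.card - A.card) * y ^ (F.card - A.card))) (s := F.powerset)
      (fun A _ => by
        apply mul_nonneg
        · split_ifs <;> norm_num
        · exact mul_nonneg (hth _) (by positivity)) hmem
    simp only [h2, if_true, one_mul] at h5
    rw [h3]
    exact h5
  have h2 : (∑ g : G, th (im a g F \ Z).card * y ^ (im a g F \ Z).card) ≤
      (∑ A ∈ F.powerset, th (F.card - A.card) * P a Z A * y ^ (F.card - A.card)) *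
        Fintype.card G := by
    refine (Finset.sum_le_sum fun g _ => h1 g).trans (le_of_eq ?_)
    rw [Finset.sum_comm, Finset.sum_mul]
    apply Finset.sum_congr rfl
    intro A _
    rw [← Finset.sum_mul, P_eq]
    field_simp
  rw [div_le_iff₀ hG]
  refine h2.trans ?_
  apply mul_le_mul_of_nonneg_right _ hG.le
  apply Finset.sum_le_sum
  intro A _
  apply mul_le_mul_of_nonneg_right _ (by positivity)
  apply mul_le_mul_of_nonneg_left _ (hth _)
  rw [← P_im_left a Z A h]
  exact P_mono_left a hh A

theorem upper (q : ℝ) (hq : 0 < q) (W F : Finset X) (hW : Hyp a q W) (th : ℕ → ℝ)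
    (hth : ∀ j, 0 ≤ th j) : ∀ (k : ℕ) (Z : Finset X), Q a W F th k Z ≤
      2 * (4 * q) ^ Z.card *
        (∑ A ∈ F.powerset, th (F.card - A.card) * P a W A * (4 * q) ^ (F.card - A.card)) ^ k := by
  set s := ∑ A ∈ F.powerset, th (F.card - A.card) * P a W A * (4 * q) ^ (F.card - A.card)
    with hs
  have hs0 : 0 ≤ s := Finset.sum_nonneg fun A _ =>
    mul_nonneg (mul_nonneg (hth _) (P_nonneg a W A)) (by positivity)
  have hG : (0:ℝ) < Fintype.card G := cardG_pos
  intro k
  induction k with
  | zero =>
    intro Z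
    rw [pow_zero, mul_one]
    unfold Q
    split_ifs with h0
    · by_cases h1 : ∃ h : G, im a h Z ⊆ W
      · obtain ⟨h, hh⟩ := h1
        have h2 := hW _ hh
        rw [card_im] at h2
        have h3 := P_mul_N a W (im a h Z)
        rw [P_im_right] at h3
        have h4 : (N a W (im a h Z) : ℝ) ≤ 2 ^ W.card := by
          have h5 := N_le_choose a W (im a h Z)
          have h6 : W.card.choose (im a h Z).card ≤ 2 ^ W.card := by
            rw [← Nat.sum_range_choose]
            by_cases h7 : (im a h Z).card ∈ range (W.card + 1)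
            · exact Finset.single_le_sum (f := fun m => W.card.choose m)
                (fun _ _ => Nat.zero_le _) h7
            · rw [mem_range, not_lt] at h7
              rw [Nat.choose_eq_zero_of_lt (by omega)]
              exact Nat.zero_le _
          exact_mod_cast h5.trans h6
        have h7 : (2:ℝ) ^ W.card ≤ 4 ^ Z.card := by
          have : (4:ℝ) = 2 ^ 2 := by norm_num
          rw [this, ← pow_mul]
          exact pow_le_pow_right₀ (by norm_num) h0
        have hq' : 0 < q ^ Z.card := by positivity
        have h8 : P a W Z * (1 / 2) ≤ 4 ^ Z.card * q ^ Z.card := by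
          calc P a W Z * (1 / 2) ≤ P a W Z * ((N a univ (im a h Z) : ℝ) * q ^ Z.card) :=
                mul_le_mul_of_nonneg_left h2 (P_nonneg a W Z)
            _ = (N a W (im a h Z) : ℝ) * q ^ Z.card := by rw [← h3]; ring
            _ ≤ 4 ^ Z.card * q ^ Z.card :=
                mul_le_mul_of_nonneg_right (h4.trans h7) hq'.le
        rw [mul_pow]
        linarith
      · have : P a W Z = 0 := by
          rw [← P_pos_iff] at h1
          exact le_antisymm (not_lt.1 h1) (P_nonneg a W Z)
        rw [this]; positivity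
    · positivity
  | succ k ih =>
    intro Z
    by_cases h1 : ∃ h : G, im a h Z ⊆ W
    · conv_lhs => unfold Q
      split_ifs with h0
      · positivity
      · have h2 : (∑ g : G, th (im a g F \ Z).card * Q a W F th k (Z ∪ im a g F)) ≤
            2 * (4 * q) ^ Z.card * s ^ k *
              ∑ g : G, th (im a g F \ Z).card * (4 * q) ^ (im a g F \ Z).card := by
          rw [Finset.mul_sum]
          apply Finset.sum_le_sum
          intro g _
          have h3 : (Z ∪ im a g F).card = Z.card + (im a g F \ Z).card := by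
            rw [← Finset.card_union_of_disjoint disjoint_sdiff,
              Finset.union_sdiff_self_eq_union]
          calc th (im a g F \ Z).card * Q a W F th k (Z ∪ im a g F)
              ≤ th (im a g F \ Z).card * (2 * (4 * q) ^ (Z ∪ im a g F).card * s ^ k) :=
                mul_le_mul_of_nonneg_left (ih _) (hth _)
            _ = _ := by rw [h3, pow_add]; ring
        have h4 := step_upper a W F th hth (4 * q) (by positivity) Z h1
        rw [← hs] at h4
        rw [div_le_iff₀ hG] at h4 ⊢
        refine h2.trans ?_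
        have h5 : 0 ≤ 2 * (4 * q) ^ Z.card * s ^ k := by positivity
        refine (mul_le_mul_of_nonneg_left h4 h5).trans (le_of_eq ?_)
        rw [pow_succ]; ring
    · have h2 : P a W Z = 0 := by
        rw [← P_pos_iff] at h1
        exact le_antisymm (not_lt.1 h1) (P_nonneg a W Z)
      rw [Q_zero_of a W F th _ Z h2]
      positivity

/-- The tree inequality. -/
theorem keyR (q : ℝ) (hq : 0 < q) (W F : Finset X) (hW : Hyp a q W) (hne : W.Nonempty)
    (th : ℕ → ℝ) (hth : ∀ j, 0 ≤ th j) (hth0 : th 0 = 0) (hP : 0 < P a W F)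
    (hrob : ∀ Z, Z ⊆ W → 2 * Z.card < W.card → P a W F ≤
      (∑ g : G, if im a g F ⊆ W then th (im a g F \ Z).card else 0) / Fintype.card G) :
    P a W F ≤ 3 * ∑ A ∈ F.powerset,
      th (F.card - A.card) * P a W A * (4 * q) ^ (F.card - A.card) := by
  set s := ∑ A ∈ F.powerset, th (F.card - A.card) * P a W A * (4 * q) ^ (F.card - A.card)
    with hs
  have hs0 : 0 ≤ s := Finset.sum_nonneg fun A _ =>
    mul_nonneg (mul_nonneg (hth _) (P_nonneg a W A)) (by positivity)
  by_contra hcon
  push Not at hcon
  set t := s / P a W F with ht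
  have ht0 : 0 ≤ t := div_nonneg hs0 hP.le
  have ht3 : t < 1 / 3 := by
    rw [ht, div_lt_iff₀ hP]; linarith
  have h1 := lower a W F th hth hth0 (P a W F) hP hrob W.card ∅
    (by rw [card_empty]; omega)
  rw [P_empty, Finset.sum_range_succ'] at h1
  have h2 : Q a W F th 0 ∅ / P a W F ^ 0 = 0 := by
    rw [pow_zero, div_one]; unfold Q
    rw [if_neg]
    have := hne.card_pos
    simp only [card_empty]; omega
  rw [h2, add_zero] at h1
  have h3 : ∀ n : ℕ, ∑ k ∈ range n, Q a W F th (k + 1) ∅ / P a W F ^ (k + 1) ≤
      2 * ∑ k ∈ range n, t ^ (k + 1) := by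
    intro n
    rw [Finset.mul_sum]
    apply Finset.sum_le_sum
    intro k _
    have h4 := upper a q hq W F hW th hth (k + 1) ∅
    rw [← hs, card_empty, pow_zero, mul_one] at h4
    rw [ht, div_pow, div_le_iff₀ (by positivity)]
    refine h4.trans (le_of_eq ?_)
    field_simp
  have h4 : ∀ n : ℕ, ∑ k ∈ range n, t ^ (k + 1) ≤ t / (1 - t) := by
    intro n
    rw [le_div_iff₀ (by linarith)]
    have : ∀ n : ℕ, (∑ k ∈ range n, t ^ (k + 1)) * (1 - t) = t - t ^ (n + 1) := by
      intro n
      induction n with
      | zero => simp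
      | succ n ih => rw [Finset.sum_range_succ, add_mul, ih]; ring
    rw [this]
    have : 0 ≤ t ^ (n + 1) := by positivity
    linarith
  have h5 : t / (1 - t) < 1 / 2 := by
    rw [div_lt_iff₀ (by linarith)]; linarith
  have h6 := h3 W.card
  have h7 := h4 W.card
  linarith

end Vale.Agent.H14.P064
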