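import Vale.Agent.H2.P064b.Part2
import Vale.Agent.H14.P064.KeyR

/-! # P064: `KeyR` holds; the spread bound with one logarithm -/

namespace Vale.Agent.H14.P064

open Finset Classical Vale.Agent.H2.P064

variable {X G : Type} [Fintype X] [Group G] [Fintype G] (a : G →* Equiv.Perm X)

theorem keyR_holds : Vale.Agent.H2.P064.KeyR a :=
  fun q hq W F hW hne th hth hth0 hP hrob => keyR a q hq W F hW hne th hth hth0 hP hrob

theorem spread_log (q : ℝ) (hq : 0 < q) (H : Finset X) (hH : Hyp a q H) (U : Finset X)
    (hU : U ⊆ H) (hU0 : U.Nonempty) :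
    P a H U ≤ (1500 * (1 + Real.log H.card) * q) ^ U.card :=
  spread_log_of a (keyR_holds a) q hq H hH U hU hU0

end Vale.Agent.H14.P064
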